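import Vale.Agent.Lib.P224.Convex

namespace Vale.Agent.Lib.P224

open Real Set Filter Topology

/-- normalised version of `Lfun`: `D x = log (h(x) √(2π) / (2e)^(x/2))` -/
noncomputable def Dfun (x : ℝ) : ℝ := Lfun x - x / 2 * (log 2 + 1) + log (2 * π) / 2

lemma strictConvexOn_Dfun : StrictConvexOn ℝ (Ioi 0) Dfun := by
  have h := strictConvexOn_Lfun.add_convexOn
    (convexOn_affine (convex_Ioi (0:ℝ)) (- (log 2 + 1) / 2) (log (2 * π) / 2))
  have : (Lfun + fun x => - (log 2 + 1) / 2 * x + log (2 * π) / 2) = Dfun := by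
    funext x
    simp only [Pi.add_apply, Dfun]
    ring
  rwa [this] at h

lemma Dfun_odd (n : ℕ) (hn : 0 < n) :
    Dfun (2 * n + 1) = (n:ℝ) * log (1 + (1 / 2) / n) + (1 / 2) * log (1 + (1 / 2) / n) - 1 / 2
      + (log π / 2 - log (Stirling.stirlingSeq n)) := by
  have hn' : (0:ℝ) < n := by exact_mod_cast hn
  rw [Stirling.log_stirlingSeq_formula]
  simp only [Dfun, Lfun]
  have e1 : ((2:ℝ) * n + 1 + 1) / 2 = n + 1 := by ring
  rw [e1, Real.Gamma_nat_eq_factorial]
  have e2 : (2:ℝ) * n + 1 = 2 * n * (1 + (1 / 2) / n) := by field_simp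
  have e3 : log ((2:ℝ) * n + 1) = log 2 + log n + log (1 + (1 / 2) / n) := by
    rw [e2, Real.log_mul (by positivity) (by positivity), Real.log_mul (by norm_num) hn'.ne']
  rw [e3, Real.log_mul (by norm_num) hn'.ne', Real.log_div hn'.ne' (Real.exp_pos 1).ne',
    Real.log_exp, Real.log_mul (by norm_num) Real.pi_pos.ne']
  ring

lemma tendsto_Dfun_odd : Tendsto (fun n : ℕ => Dfun (2 * n + 1)) atTop (𝓝 0) := by
  have h1 : Tendsto (fun n : ℕ => (n:ℝ) * log (1 + (1 / 2) / n)) atTop (𝓝 (1 / 2)) :=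
    (Real.tendsto_mul_log_one_add_div_atTop (1 / 2)).comp tendsto_natCast_atTop_atTop
  have h2 : Tendsto (fun n : ℕ => log (1 + (1 / 2) / (n:ℝ))) atTop (𝓝 0) := by
    have : Tendsto (fun n : ℕ => 1 + (1 / 2) / (n:ℝ)) atTop (𝓝 (1 + 0)) :=
      tendsto_const_nhds.add (tendsto_const_nhds.div_atTop tendsto_natCast_atTop_atTop)
    rw [add_zero] at this
    have := this.log (by norm_num)
    rwa [Real.log_one] at this
  have h3 : Tendsto (fun n : ℕ => log (Stirling.stirlingSeq n)) atTop (𝓝 (log π / 2)) := by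
    have := Stirling.tendsto_stirlingSeq_sqrt_pi.log (by positivity)
    rwa [Real.log_sqrt Real.pi_pos.le] at this
  have h4 : Tendsto (fun n : ℕ => (n:ℝ) * log (1 + (1 / 2) / n) + (1 / 2) * log (1 + (1 / 2) / n)
      - 1 / 2 + (log π / 2 - log (Stirling.stirlingSeq n))) atTop
      (𝓝 (1 / 2 + (1 / 2) * 0 - 1 / 2 + (log π / 2 - log π / 2))) :=
    ((h1.add (h2.const_mul (1 / 2))).sub_const (1 / 2)).add (h3.const_sub _)
  have e : (1 / 2 + (1 / 2) * 0 - 1 / 2 + (log π / 2 - log π / 2) : ℝ) = 0 := by ring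
  rw [e] at h4
  refine h4.congr' ?_
  filter_upwards [eventually_gt_atTop 0] with n hn
  exact (Dfun_odd n hn).symm

/-- A convex function on `(0,∞)` tending to `0` along a sequence going to infinity is antitone. -/
lemma antitone_of_convex_tendsto {f : ℝ → ℝ} (hf : ConvexOn ℝ (Ioi 0) f) {u : ℕ → ℝ}
    (hu : Tendsto u atTop atTop) (hfu : Tendsto (fun n => f (u n)) atTop (𝓝 0))
    {a b : ℝ} (ha : 0 < a) (hab : a < b) : f b ≤ f a := by
  by_contra hcon
  rw [not_le] at hcon
  set s := (f b - f a) / (b - a) with hs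
  have hspos : 0 < s := div_pos (by linarith) (by linarith)
  have key : ∀ x, b < x → f b + (x - b) * s ≤ f x := by
    intro x hx
    have := hf.slope_mono_adjacent (x := a) (y := b) (z := x) ha (by
      show (0:ℝ) < x
      linarith) hab hx
    rw [← hs, le_div_iff₀ (by linarith)] at this
    linarith
  have ev1 : ∀ᶠ n in atTop, f (u n) < 1 := hfu.eventually (gt_mem_nhds (by norm_num))
  have ev2 : ∀ᶠ n in atTop, b + (1 - f b) / s + 1 < u n := hu.eventually_gt_atTop _
  have ev3 : ∀ᶠ n in atTop, b < u n := hu.eventually_gt_atTop _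
  obtain ⟨n, h1, h2, h3⟩ := (ev1.and (ev2.and ev3)).exists
  have h4 := key (u n) h3
  have h5 : (1 - f b) / s < u n - b := by linarith
  rw [div_lt_iff₀ hspos] at h5
  linarith

lemma Dfun_antitone {a b : ℝ} (ha : 0 < a) (hab : a ≤ b) : Dfun b ≤ Dfun a := by
  rcases eq_or_lt_of_le hab with h | h
  · rw [h]
  · refine antitone_of_convex_tendsto strictConvexOn_Dfun.convexOn (u := fun n : ℕ => 2 * (n:ℝ) + 1)
      ?_ tendsto_Dfun_odd ha h
    exact tendsto_atTop_add_const_right _ _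
      (tendsto_natCast_atTop_atTop.const_mul_atTop (by norm_num))

lemma Dfun_nonneg {a : ℝ} (ha : 0 < a) : 0 ≤ Dfun a := by
  refine le_of_tendsto tendsto_Dfun_odd ?_
  have hu : Tendsto (fun n : ℕ => 2 * (n:ℝ) + 1) atTop atTop :=
    tendsto_atTop_add_const_right _ _ (tendsto_natCast_atTop_atTop.const_mul_atTop (by norm_num))
  filter_upwards [hu.eventually_ge_atTop a] with n hn
  exact Dfun_antitone ha hn

lemma Dfun_pos {a : ℝ} (ha : 0 < a) : 0 < Dfun a := by
  rcases eq_or_lt_of_le (Dfun_nonneg ha) with h | h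
  · exfalso
    have h1 : Dfun (a + 1) = 0 :=
      le_antisymm (h ▸ Dfun_antitone ha (by linarith)) (Dfun_nonneg (by linarith))
    have h2 : Dfun (a + 2) = 0 :=
      le_antisymm (h ▸ Dfun_antitone ha (by linarith)) (Dfun_nonneg (by linarith))
    have := strictConvex_major strictConvexOn_Dfun (a := a) (b := a + 1) (c := a + 1) (d := a + 2)
      ha (by show (0:ℝ) < a + 2; linarith) (by linarith) (by linarith) (by ring)
    rw [h1, h2, ← h] at this
    linarith
  · exact h

lemma tendsto_Dfun_nat : Tendsto (fun n : ℕ => Dfun n) atTop (𝓝 0) := by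
  -- squeeze between 0 and the odd subsequence
  rw [Metric.tendsto_atTop]
  intro ε hε
  obtain ⟨N, hN⟩ := (Metric.tendsto_atTop.mp tendsto_Dfun_odd) ε hε
  refine ⟨2 * N + 1, fun n hn => ?_⟩
  have h1 := hN N le_rfl
  have hpos : (0:ℝ) < 2 * N + 1 := by positivity
  have hle : (2 * (N:ℝ) + 1) ≤ n := by exact_mod_cast hn
  have h2 := Dfun_antitone hpos hle
  have h3 := Dfun_nonneg (lt_of_lt_of_le hpos hle)
  have h4 := Dfun_nonneg hpos
  rw [Real.dist_eq, sub_zero, abs_of_nonneg h4] at h1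
  rw [Real.dist_eq, sub_zero, abs_of_nonneg h3]
  linarith

end Vale.Agent.Lib.P224
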