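import Vale.Agent.Lib.P224.Defs
import Vale.Agent.Lib.P224.Stirling

namespace Vale.Agent.Lib.P224

open Real Set Filter Topology

lemma exp_Lfun {x : ℝ} (hx : 0 < x) : exp (Lfun x) = x ^ (x / 2) / Gamma ((x + 1) / 2) := by
  unfold Lfun
  rw [Real.exp_sub, Real.exp_log (Real.Gamma_pos_of_pos (by positivity)),
    Real.rpow_def_of_pos hx, mul_comm]

lemma sphereVol_eq {m : ℕ} (hm : 1 ≤ m) :
    sphereVol m = 2 * π ^ (((m:ℝ) + 1) / 2) / (m:ℝ) ^ ((m:ℝ) / 2) * exp (Lfun m) := by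
  have hm' : (0:ℝ) < m := by exact_mod_cast hm
  rw [exp_Lfun hm', sphereVol]
  have : (0:ℝ) < (m:ℝ) ^ ((m:ℝ) / 2) := Real.rpow_pos_of_pos hm' _
  have hG : 0 < Gamma (((m:ℝ) + 1) / 2) := Real.Gamma_pos_of_pos (by positivity)
  field_simp

lemma sphereVol_pos (m : ℕ) : 0 < sphereVol m := by
  unfold sphereVol
  have hG : 0 < Gamma (((m:ℝ) + 1) / 2) := Real.Gamma_pos_of_pos (by positivity)
  positivity

lemma cliffordVol_eq {m k : ℕ} (hk : 1 ≤ k) (hkm : k < m) :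
    cliffordVol m k = 4 * π ^ (((m:ℝ) + 2) / 2) / (m:ℝ) ^ ((m:ℝ) / 2)
      * exp (Lfun k + Lfun ((m:ℝ) - k)) := by
  have hk' : (0:ℝ) < k := by exact_mod_cast hk
  have hkm' : (k:ℝ) < m := by exact_mod_cast hkm
  have hm' : (0:ℝ) < m := by linarith
  have hl' : (0:ℝ) < (m:ℝ) - k := by linarith
  have hcast : ((m - k : ℕ) : ℝ) = (m:ℝ) - k := by
    rw [Nat.cast_sub hkm.le]
  rw [Real.exp_add, exp_Lfun hk', exp_Lfun hl']
  unfold cliffordVol sphereVol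
  rw [hcast, Real.div_rpow hk'.le hm'.le, Real.div_rpow hl'.le hm'.le]
  have e1 : (m:ℝ) ^ ((m:ℝ) / 2) = (m:ℝ) ^ ((k:ℝ) / 2) * (m:ℝ) ^ (((m:ℝ) - k) / 2) := by
    rw [← Real.rpow_add hm']; congr 1; ring
  have e2 : π ^ (((m:ℝ) + 2) / 2) = π ^ (((k:ℝ) + 1) / 2) * π ^ (((m:ℝ) - k + 1) / 2) := by
    rw [← Real.rpow_add Real.pi_pos]; congr 1; ring
  rw [e1, e2]
  have h1 : (0:ℝ) < (m:ℝ) ^ ((k:ℝ) / 2) := Real.rpow_pos_of_pos hm' _
  have h2 : (0:ℝ) < (m:ℝ) ^ (((m:ℝ) - k) / 2) := Real.rpow_pos_of_pos hm' _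
  have hG1 : 0 < Gamma (((k:ℝ) + 1) / 2) := Real.Gamma_pos_of_pos (by positivity)
  have hG2 : 0 < Gamma (((m:ℝ) - k + 1) / 2) := Real.Gamma_pos_of_pos (by positivity)
  field_simp
  ring

lemma cliffordVol_ratio {m k : ℕ} (hk : 1 ≤ k) (hkm : k < m) :
    cliffordVol m k = sphereVol m * (2 * √π * exp (Lfun k + Lfun ((m:ℝ) - k) - Lfun m)) := by
  have hm : 1 ≤ m := by omega
  have hm' : (0:ℝ) < m := by exact_mod_cast hm
  rw [cliffordVol_eq hk hkm, sphereVol_eq hm, Real.exp_sub]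
  have e2 : π ^ (((m:ℝ) + 2) / 2) = π ^ (((m:ℝ) + 1) / 2) * √π := by
    rw [Real.sqrt_eq_rpow, ← Real.rpow_add Real.pi_pos]; congr 1; ring
  rw [e2]
  have h1 : (0:ℝ) < (m:ℝ) ^ ((m:ℝ) / 2) := Real.rpow_pos_of_pos hm' _
  have h2 := Real.exp_pos (Lfun m)
  field_simp
  ring

lemma cliffordVol_ratio_D {m k : ℕ} (hk : 1 ≤ k) (hkm : k < m) :
    cliffordVol m k = sphereVol m * (√2 * exp (Dfun k + Dfun ((m:ℝ) - k) - Dfun m)) := by
  rw [cliffordVol_ratio hk hkm]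
  congr 1
  have e : Dfun k + Dfun ((m:ℝ) - k) - Dfun m
      = (Lfun k + Lfun ((m:ℝ) - k) - Lfun m) + log (2 * π) / 2 := by
    simp only [Dfun]; ring
  rw [e, Real.exp_add]
  have e2 : exp (log (2 * π) / 2) = √2 * √π := by
    rw [← Real.log_sqrt (by positivity), Real.exp_log (by positivity),
      Real.sqrt_mul (by norm_num)]
  rw [e2]
  have : √2 * √2 = 2 := Real.mul_self_sqrt (by norm_num)
  calc 2 * √π * exp (Lfun k + Lfun ((m:ℝ) - k) - Lfun m)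
      = (√2 * √2) * √π * exp (Lfun k + Lfun ((m:ℝ) - k) - Lfun m) := by rw [this]
    _ = _ := by ring

lemma clifford_le_iff {m k j : ℕ} (hk : 1 ≤ k) (hkm : k < m) (hj : 1 ≤ j) (hjm : j < m) :
    cliffordVol m j ≤ cliffordVol m k ↔
      Lfun j + Lfun ((m:ℝ) - j) ≤ Lfun k + Lfun ((m:ℝ) - k) := by
  have hm' : (0:ℝ) < m := by
    have : 0 < m := by omega
    exact_mod_cast this
  rw [cliffordVol_eq hk hkm, cliffordVol_eq hj hjm]
  have h1 : (0:ℝ) < (m:ℝ) ^ ((m:ℝ) / 2) := Real.rpow_pos_of_pos hm' _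
  have hC : 0 < 4 * π ^ (((m:ℝ) + 2) / 2) / (m:ℝ) ^ ((m:ℝ) / 2) := by positivity
  rw [mul_le_mul_iff_right₀ hC, Real.exp_le_exp]

lemma clifford_lt_iff {m k j : ℕ} (hk : 1 ≤ k) (hkm : k < m) (hj : 1 ≤ j) (hjm : j < m) :
    cliffordVol m j < cliffordVol m k ↔
      Lfun j + Lfun ((m:ℝ) - j) < Lfun k + Lfun ((m:ℝ) - k) := by
  have hm' : (0:ℝ) < m := by
    have : 0 < m := by omega
    exact_mod_cast this
  rw [cliffordVol_eq hk hkm, cliffordVol_eq hj hjm]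
  have h1 : (0:ℝ) < (m:ℝ) ^ ((m:ℝ) / 2) := Real.rpow_pos_of_pos hm' _
  have hC : 0 < 4 * π ^ (((m:ℝ) + 2) / 2) / (m:ℝ) ^ ((m:ℝ) / 2) := by positivity
  rw [mul_lt_mul_iff_right₀ hC, Real.exp_lt_exp]

theorem clifford_min {m k : ℕ} (hk : 1 ≤ k) (hkm : k < m) :
    cliffordVol m (m / 2) ≤ cliffordVol m k := by
  have hm : 2 ≤ m := by omega
  have h0 : 1 ≤ m / 2 := by omega
  have h0m : m / 2 < m := by omega
  rw [clifford_le_iff hk hkm h0 h0m]
  have hk' : (1:ℝ) ≤ k := by exact_mod_cast hk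
  have hkm' : (k:ℝ) + 1 ≤ m := by exact_mod_cast hkm
  have f1 : 2 * ((m / 2 : ℕ) : ℝ) ≤ m := by
    have : 2 * (m / 2) ≤ m := by omega
    exact_mod_cast this
  have f2 : (m:ℝ) ≤ 2 * ((m / 2 : ℕ) : ℝ) + 1 := by
    have : m ≤ 2 * (m / 2) + 1 := by omega
    exact_mod_cast this
  rcases le_or_gt k (m / 2) with h | h
  · have h' : (k:ℝ) ≤ ((m / 2 : ℕ) : ℝ) := by exact_mod_cast h
    exact convex_major convexOn_Lfun (a := k) (d := (m:ℝ) - k)
      (by show (0:ℝ) < k; linarith) (by show (0:ℝ) < (m:ℝ) - k; linarith) h' (by linarith) (by ring)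
  · have h' : ((m / 2 : ℕ) : ℝ) + 1 ≤ k := by exact_mod_cast h
    have := convex_major convexOn_Lfun (a := (m:ℝ) - k) (d := k) (b := ((m / 2 : ℕ) : ℝ))
      (c := (m:ℝ) - ((m / 2 : ℕ) : ℝ))
      (by show (0:ℝ) < (m:ℝ) - k; linarith) (by show (0:ℝ) < k; linarith) (by linarith)
      (by linarith) (by ring)
    linarith

theorem clifford_min_strict {m k : ℕ} (hk : 1 ≤ k) (hkm : k < m) (h1 : k ≠ m / 2)
    (h2 : k ≠ m - m / 2) : cliffordVol m (m / 2) < cliffordVol m k := by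
  have hm : 2 ≤ m := by omega
  have h0 : 1 ≤ m / 2 := by omega
  have h0m : m / 2 < m := by omega
  rw [clifford_lt_iff hk hkm h0 h0m]
  have hk' : (1:ℝ) ≤ k := by exact_mod_cast hk
  have hkm' : (k:ℝ) + 1 ≤ m := by exact_mod_cast hkm
  have f1 : 2 * ((m / 2 : ℕ) : ℝ) ≤ m := by
    have : 2 * (m / 2) ≤ m := by omega
    exact_mod_cast this
  have f2 : (m:ℝ) ≤ 2 * ((m / 2 : ℕ) : ℝ) + 1 := by
    have : m ≤ 2 * (m / 2) + 1 := by omega
    exact_mod_cast this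
  rcases lt_or_gt_of_ne h1 with h | h
  · have h' : (k:ℝ) + 1 ≤ ((m / 2 : ℕ) : ℝ) := by exact_mod_cast h
    exact strictConvex_major strictConvexOn_Lfun (a := k) (d := (m:ℝ) - k)
      (by show (0:ℝ) < k; linarith) (by show (0:ℝ) < (m:ℝ) - k; linarith) (by linarith)
      (by linarith) (by ring)
  · have h3 : m - m / 2 + 1 ≤ k := by omega
    have h3' : (m:ℝ) - ((m / 2 : ℕ) : ℝ) + 1 ≤ k := by
      have : ((m - m / 2 : ℕ) : ℝ) + 1 ≤ k := by exact_mod_cast h3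
      rwa [Nat.cast_sub h0m.le] at this
    have := strictConvex_major strictConvexOn_Lfun (a := (m:ℝ) - k) (d := k)
      (b := ((m / 2 : ℕ) : ℝ)) (c := (m:ℝ) - ((m / 2 : ℕ) : ℝ))
      (by show (0:ℝ) < (m:ℝ) - k; linarith) (by show (0:ℝ) < k; linarith) (by linarith)
      (by linarith) (by ring)
    linarith

theorem clifford_lower {m k : ℕ} (hk : 1 ≤ k) (hkm : k < m) :
    √2 * sphereVol m < cliffordVol m k := by
  rw [cliffordVol_ratio_D hk hkm]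
  have hk' : (1:ℝ) ≤ k := by exact_mod_cast hk
  have hkm' : (k:ℝ) + 1 ≤ m := by exact_mod_cast hkm
  have h1 : Dfun m ≤ Dfun k := Dfun_antitone (by linarith) (by linarith)
  have h2 : 0 < Dfun ((m:ℝ) - k) := Dfun_pos (by linarith)
  have h3 : 1 < exp (Dfun k + Dfun ((m:ℝ) - k) - Dfun m) := by
    rw [← Real.exp_zero]; exact Real.exp_lt_exp.mpr (by linarith)
  have hS := sphereVol_pos m
  have h4 : (0:ℝ) < √2 := by positivity
  nlinarith [mul_pos hS h4]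

lemma Lfun_one : Lfun 1 = 0 := by
  simp [Lfun]

lemma Lfun_two : Lfun 2 = log (4 / √π) := by
  have hG : Gamma ((2 + 1) / 2) = √π / 2 := by
    have : ((2:ℝ) + 1) / 2 = 1 / 2 + 1 := by norm_num
    rw [this, Real.Gamma_add_one (by norm_num), Real.Gamma_one_half_eq]
    ring
  unfold Lfun
  rw [hG]
  have e : (2:ℝ) / 2 * log 2 = log 2 := by norm_num
  rw [e, ← Real.log_div (by norm_num) (by positivity)]
  congr 1
  field_simp
  norm_num

theorem clifford_upper {m : ℕ} (hm : 2 ≤ m) : cliffordVol m 1 ≤ π / 2 * sphereVol m := by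
  rw [cliffordVol_ratio le_rfl (by omega)]
  have hm' : (2:ℝ) ≤ m := by exact_mod_cast hm
  have h1 := convex_major convexOn_Lfun (a := 1) (b := 2) (c := (m:ℝ) - 1) (d := m)
    (by show (0:ℝ) < 1; norm_num) (by show (0:ℝ) < m; linarith) (by norm_num) hm' (by ring)
  rw [Lfun_one, Lfun_two] at h1
  have h2 : Lfun ((1:ℕ):ℝ) + Lfun ((m:ℝ) - ((1:ℕ):ℝ)) - Lfun m ≤ - log (4 / √π) := by
    rw [Nat.cast_one, Lfun_one]; linarith
  have h3 : exp (Lfun ((1:ℕ):ℝ) + Lfun ((m:ℝ) - ((1:ℕ):ℝ)) - Lfun m) ≤ √π / 4 := by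
    refine (Real.exp_le_exp.mpr h2).trans (le_of_eq ?_)
    rw [Real.exp_neg, Real.exp_log (by positivity)]
    field_simp
  have hS := sphereVol_pos m
  have hpi : √π * √π = π := Real.mul_self_sqrt Real.pi_pos.le
  have h4 : 2 * √π * exp (Lfun ((1:ℕ):ℝ) + Lfun ((m:ℝ) - ((1:ℕ):ℝ)) - Lfun m) ≤ π / 2 := by
    have : 2 * √π * exp (Lfun ((1:ℕ):ℝ) + Lfun ((m:ℝ) - ((1:ℕ):ℝ)) - Lfun m)
        ≤ 2 * √π * (√π / 4) := by gcongr
    linarith
  calc sphereVol m * (2 * √π * exp (Lfun ((1:ℕ):ℝ) + Lfun ((m:ℝ) - ((1:ℕ):ℝ)) - Lfun m))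
      ≤ sphereVol m * (π / 2) := by gcongr
    _ = π / 2 * sphereVol m := by ring

lemma ratio_eq {m : ℕ} (hm : 2 ≤ m) :
    cliffordVol m (m / 2) / sphereVol m
      = √2 * exp (Dfun ((m / 2 : ℕ) : ℝ) + Dfun ((m - m / 2 : ℕ) : ℝ) - Dfun m) := by
  rw [cliffordVol_ratio_D (by omega) (by omega), Nat.cast_sub (by omega)]
  have := sphereVol_pos m
  field_simp

theorem ratio_tendsto :
    Tendsto (fun m : ℕ => cliffordVol m (m / 2) / sphereVol m) atTop (𝓝 √2) := by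
  have t1 : Tendsto (fun m : ℕ => m / 2) atTop atTop :=
    tendsto_atTop_atTop.mpr (fun b => ⟨2 * b, fun a ha => by omega⟩)
  have t2 : Tendsto (fun m : ℕ => m - m / 2) atTop atTop :=
    tendsto_atTop_atTop.mpr (fun b => ⟨2 * b, fun a ha => by omega⟩)
  have h1 := tendsto_Dfun_nat.comp t1
  have h2 := tendsto_Dfun_nat.comp t2
  have h3 : Tendsto (fun m : ℕ => √2 * exp (Dfun ((m / 2 : ℕ) : ℝ) + Dfun ((m - m / 2 : ℕ) : ℝ)
      - Dfun m)) atTop (𝓝 (√2 * exp (0 + 0 - 0))) :=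
    (((h1.add h2).sub tendsto_Dfun_nat).rexp).const_mul _
  have e : √2 * exp (0 + 0 - 0) = √2 := by simp
  rw [e] at h3
  refine h3.congr' ?_
  filter_upwards [eventually_ge_atTop 2] with m hm
  exact (ratio_eq hm).symm

lemma E_strict {k l : ℝ} (hk : 0 < k) (hl : 0 < l) :
    Dfun k + Dfun (l + 1) - Dfun (k + l + 1) < Dfun k + Dfun l - Dfun (k + l) := by
  have := strictConvex_major strictConvexOn_Dfun (a := l) (b := l + 1) (c := k + l)
    (d := k + l + 1) hl (by show (0:ℝ) < k + l + 1; linarith) (by linarith) (by linarith) (by ring)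
  linarith

theorem ratio_strictAnti {m : ℕ} (hm : 2 ≤ m) :
    cliffordVol (m + 1) ((m + 1) / 2) / sphereVol (m + 1) < cliffordVol m (m / 2) / sphereVol m := by
  rw [ratio_eq hm, ratio_eq (by omega)]
  have h2 : (0:ℝ) < √2 := by positivity
  rw [mul_lt_mul_iff_right₀ h2, Real.exp_lt_exp]
  rcases Nat.even_or_odd' m with ⟨j, rfl | rfl⟩
  · have hj : 1 ≤ j := by omega
    have hj' : (0:ℝ) < j := by exact_mod_cast hj
    have e1 : 2 * j / 2 = j := by omega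
    have e2 : (2 * j + 1) / 2 = j := by omega
    have e3 : 2 * j - j = j := by omega
    have e4 : 2 * j + 1 - j = j + 1 := by omega
    rw [e1, e2, e3, e4]
    have := E_strict hj' hj'
    push_cast
    have c1 : (2:ℝ) * j + 1 = j + j + 1 := by ring
    have c2 : (2:ℝ) * j = j + j := by ring
    rw [c1, c2]
    exact this
  · have hj : 1 ≤ j := by omega
    have hj' : (0:ℝ) < j := by exact_mod_cast hj
    have e1 : (2 * j + 1) / 2 = j := by omega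
    have e2 : (2 * j + 1 + 1) / 2 = j + 1 := by omega
    have e3 : 2 * j + 1 - j = j + 1 := by omega
    have e4 : 2 * j + 1 + 1 - (j + 1) = j + 1 := by omega
    rw [e1, e2, e3, e4]
    have := E_strict (k := (j:ℝ) + 1) (l := j) (by linarith) hj'
    push_cast
    have c1 : (2:ℝ) * j + 1 + 1 = j + 1 + j + 1 := by ring
    have c2 : (2:ℝ) * j + 1 = j + 1 + j := by ring
    rw [c1, c2]
    linarith

end Vale.Agent.Lib.P224
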