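import Mathlib

namespace Vale.Agent.Lib.P224

open Real Set Filter Topology

noncomputable def psi (z : ℝ) : ℝ := z / 2 * log z

noncomputable def T (z : ℝ) : ℝ := psi z - psi (z + 2) + log (z + 1)

lemma hasDerivAt_psi {z : ℝ} (hz : z ≠ 0) : HasDerivAt psi (log z / 2 + 1 / 2) z := by
  have h1 : HasDerivAt (fun z : ℝ => z / 2) (1 / 2) z := (hasDerivAt_id z).div_const 2
  have h2 : HasDerivAt (fun z => z / 2 * log z) (1 / 2 * log z + z / 2 * z⁻¹) z :=
    h1.mul (hasDerivAt_log hz)
  exact h2.congr_deriv (by field_simp)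

lemma hasDerivAt_T {z : ℝ} (hz : 0 < z) :
    HasDerivAt T (log z / 2 - log (z + 2) / 2 + 1 / (z + 1)) z := by
  have h1 := hasDerivAt_psi hz.ne'
  have h2 : HasDerivAt (fun z => psi (z + 2)) (log (z + 2) / 2 + 1 / 2) z :=
    (hasDerivAt_psi (z := z + 2) (by positivity)).comp_add_const z 2
  have h3 : HasDerivAt (fun z => log (z + 1)) ((z + 1)⁻¹) z :=
    (hasDerivAt_log (x := z + 1) (by positivity)).comp_add_const z 1
  have h4 : HasDerivAt (fun z => psi z - psi (z + 2) + log (z + 1))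
      (log z / 2 + 1 / 2 - (log (z + 2) / 2 + 1 / 2) + (z + 1)⁻¹) z := (h1.sub h2).add h3
  exact h4.congr_deriv (by rw [one_div]; ring)

lemma hasDerivAt_T' {z : ℝ} (hz : 0 < z) :
    HasDerivAt (fun z => log z / 2 - log (z + 2) / 2 + 1 / (z + 1))
      (1 / (2 * z) - 1 / (2 * (z + 2)) - 1 / (z + 1) ^ 2) z := by
  have h1 : HasDerivAt (fun z => log z / 2) (z⁻¹ / 2) z := (hasDerivAt_log hz.ne').div_const 2
  have h2 : HasDerivAt (fun z => log (z + 2) / 2) ((z + 2)⁻¹ / 2) z :=
    ((hasDerivAt_log (x := z + 2) (by positivity)).comp_add_const z 2).div_const 2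
  have h3 : HasDerivAt (fun z : ℝ => 1 / (z + 1)) (- 1 / (z + 1) ^ 2) z := by
    have h4 : HasDerivAt (fun z : ℝ => z + 1) 1 z := (hasDerivAt_id z).add_const 1
    have h5 : HasDerivAt (fun z : ℝ => (z + 1)⁻¹) (- 1 / (z + 1) ^ 2) z :=
      h4.inv (by positivity : z + 1 ≠ 0)
    simpa [one_div] using h5
  have h4 : HasDerivAt (fun z => log z / 2 - log (z + 2) / 2 + 1 / (z + 1))
      (z⁻¹ / 2 - (z + 2)⁻¹ / 2 + - 1 / (z + 1) ^ 2) z := (h1.sub h2).add h3
  exact h4.congr_deriv (by field_simp; ring)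

lemma T''_pos {z : ℝ} (hz : 0 < z) : 0 < 1 / (2 * z) - 1 / (2 * (z + 2)) - 1 / (z + 1) ^ 2 := by
  have : 1 / (2 * z) - 1 / (2 * (z + 2)) - 1 / (z + 1) ^ 2 = 1 / (z * (z + 2) * (z + 1) ^ 2) := by
    field_simp
    ring
  rw [this]
  positivity

lemma convexOn_T : ConvexOn ℝ (Ioi 0) T := by
  apply convexOn_of_hasDerivWithinAt2_nonneg (convex_Ioi 0)
    (f' := fun z => log z / 2 - log (z + 2) / 2 + 1 / (z + 1))
    (f'' := fun z => 1 / (2 * z) - 1 / (2 * (z + 2)) - 1 / (z + 1) ^ 2)
  · intro z hz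
    exact (hasDerivAt_T hz).continuousAt.continuousWithinAt
  · intro z hz
    rw [interior_Ioi] at hz
    exact (hasDerivAt_T hz).hasDerivWithinAt
  · intro z hz
    rw [interior_Ioi] at hz
    exact (hasDerivAt_T' hz).hasDerivWithinAt
  · intro z hz
    rw [interior_Ioi] at hz
    exact (T''_pos hz).le

lemma convexOn_psi : ConvexOn ℝ (Ioi 0) psi := by
  have h := (Real.convexOn_mul_log.subset (Ioi_subset_Ici_self) (convex_Ioi 0)).smul
    (by norm_num : (0:ℝ) ≤ 1 / 2)
  refine h.congr ?_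
  intro x _
  simp only [psi, smul_eq_mul]
  ring

lemma convexOn_shift {f : ℝ → ℝ} (hf : ConvexOn ℝ (Ioi 0) f) {c : ℝ} (hc : 0 ≤ c) :
    ConvexOn ℝ (Ioi 0) (fun x => f (x + c)) := by
  have h := hf.translate_left c
  refine (h.subset ?_ (convex_Ioi 0))
  intro x hx
  simp only [mem_preimage, mem_Ioi] at hx ⊢
  linarith

lemma convexOn_affine {s : Set ℝ} (hs : Convex ℝ s) (α β : ℝ) :
    ConvexOn ℝ s (fun x => α * x + β) := by
  refine ⟨hs, fun x _ y _ a b _ _ hab => le_of_eq ?_⟩
  simp only [smul_eq_mul]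
  have : b = 1 - a := by linarith
  subst this
  ring

lemma convexOn_B (N : ℕ) : ∀ c : ℝ, 0 ≤ c → ConvexOn ℝ (Ioi 0)
    (fun x => psi (x + c) + ∑ m ∈ Finset.range N, log (x + c + 2 * m + 1)) := by
  induction N with
  | zero =>
    intro c hc
    simpa using convexOn_shift convexOn_psi hc
  | succ N ih =>
    intro c hc
    have h1 := convexOn_shift convexOn_T hc
    have h2 := ih (c + 2) (by linarith)
    refine (h1.add h2).congr ?_
    intro x _
    simp only [Pi.add_apply]
    rw [Finset.sum_range_succ']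
    simp only [T]
    have : ∀ m : ℕ, x + (c + 2) + 2 * (m:ℝ) + 1 = x + c + 2 * ((m + 1 : ℕ) : ℝ) + 1 := by
      intro m; push_cast; ring
    simp_rw [this]
    have e1 : x + c + 2 = x + (c + 2) := by ring
    rw [e1]
    simp
    ring

lemma convexOn_of_tendsto {s : Set ℝ} (hs : Convex ℝ s) {F : ℕ → ℝ → ℝ} {f : ℝ → ℝ}
    (hF : ∀ n, ConvexOn ℝ s (F n))
    (hlim : ∀ x ∈ s, Tendsto (fun n => F n x) atTop (𝓝 (f x))) : ConvexOn ℝ s f := by
  refine ⟨hs, fun x hx y hy a b ha hb hab => ?_⟩
  exact le_of_tendsto_of_tendsto' (hlim _ (hs hx hy ha hb hab))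
    (((hlim x hx).const_smul a).add ((hlim y hy).const_smul b))
    (fun n => (hF n).2 hx hy ha hb hab)

/-- `L x = log (x^(x/2) / Γ((x+1)/2))` -/
noncomputable def Lfun (x : ℝ) : ℝ := x / 2 * log x - log (Gamma ((x + 1) / 2))

lemma convexOn_approx (n : ℕ) : ConvexOn ℝ (Ioi 0)
    (fun x => psi x - Real.BohrMollerup.logGammaSeq ((x + 1) / 2) n) := by
  have h1 := convexOn_B (n + 1) 0 le_rfl
  have h2 := convexOn_affine (convex_Ioi (0:ℝ)) (- log n / 2)
    (- log n / 2 - log (n.factorial) - (n + 1) * log 2)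
  refine (h1.add h2).congr ?_
  intro x hx
  have hx' : (0:ℝ) < x := hx
  simp only [Pi.add_apply, Real.BohrMollerup.logGammaSeq, add_zero]
  have : ∀ m : ℕ, log ((x + 1) / 2 + m) = log (x + 2 * m + 1) - log 2 := by
    intro m
    rw [← Real.log_div (by positivity) (by norm_num)]
    congr 1
    ring
  simp_rw [this]
  rw [Finset.sum_sub_distrib]
  simp
  ring

theorem convexOn_Lfun : ConvexOn ℝ (Ioi 0) Lfun := by
  apply convexOn_of_tendsto (convex_Ioi 0) convexOn_approx
  intro x hx
  have hx' : (0:ℝ) < x := hx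
  have := Real.BohrMollerup.tendsto_log_gamma (x := (x + 1) / 2) (by positivity)
  exact this.const_sub (psi x)

lemma strictConvexOn_T : StrictConvexOn ℝ (Ioi 0) T := by
  apply strictConvexOn_of_deriv2_pos' (convex_Ioi 0)
  · intro z hz
    exact (hasDerivAt_T hz).continuousAt.continuousWithinAt
  · intro z hz
    have hz' : (0:ℝ) < z := hz
    have h1 : deriv T =ᶠ[𝓝 z] (fun z => log z / 2 - log (z + 2) / 2 + 1 / (z + 1)) := by
      filter_upwards [Ioi_mem_nhds hz'] with y hy
      exact (hasDerivAt_T hy).deriv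
    simp only [Function.iterate_succ, Function.iterate_zero, Function.comp_apply, id]
    rw [h1.deriv_eq, (hasDerivAt_T' hz').deriv]
    exact T''_pos hz'

lemma convexOn_approx_sub (n : ℕ) : ConvexOn ℝ (Ioi 0)
    (fun x => psi x - Real.BohrMollerup.logGammaSeq ((x + 1) / 2) n - T x) := by
  have h1 := convexOn_B n 2 (by norm_num)
  have h2 := convexOn_affine (convex_Ioi (0:ℝ)) (- log n / 2)
    (- log n / 2 - log (n.factorial) - (n + 1) * log 2)
  refine (h1.add h2).congr ?_
  intro x hx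
  have hx' : (0:ℝ) < x := hx
  simp only [Pi.add_apply, Real.BohrMollerup.logGammaSeq, T]
  have : ∀ m : ℕ, log ((x + 1) / 2 + m) = log (x + 2 * m + 1) - log 2 := by
    intro m
    rw [← Real.log_div (by positivity) (by norm_num)]
    congr 1
    ring
  simp_rw [this]
  rw [Finset.sum_sub_distrib, Finset.sum_range_succ']
  have : ∀ m : ℕ, x + 2 + 2 * (m:ℝ) + 1 = x + 2 * ((m + 1 : ℕ) : ℝ) + 1 := by
    intro m; push_cast; ring
  simp_rw [this]
  simp
  ring

theorem strictConvexOn_Lfun : StrictConvexOn ℝ (Ioi 0) Lfun := by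
  have h1 : ConvexOn ℝ (Ioi 0) (fun x => Lfun x - T x) := by
    apply convexOn_of_tendsto (convex_Ioi 0) convexOn_approx_sub
    intro x hx
    have hx' : (0:ℝ) < x := hx
    have := Real.BohrMollerup.tendsto_log_gamma (x := (x + 1) / 2) (by positivity)
    exact (this.const_sub (psi x)).sub_const (T x)
  have h2 := strictConvexOn_T.add_convexOn h1
  have : (T + fun x => Lfun x - T x) = Lfun := by
    funext x; simp
  rwa [this] at h2

/-- strict majorisation for strictly convex functions on an interval -/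
lemma strictConvex_major {f : ℝ → ℝ} {s : Set ℝ} (hf : StrictConvexOn ℝ s f) {a b c d : ℝ}
    (ha : a ∈ s) (hd : d ∈ s) (hab : a < b) (hbd : b < d) (hsum : a + d = b + c) :
    f b + f c < f a + f d := by
  set l := (d - b) / (d - a) with hl
  have hda : 0 < d - a := by linarith
  have hl0 : 0 < l := div_pos (by linarith) hda
  have hl1 : l < 1 := by rw [hl, div_lt_one hda]; linarith
  have e1 : l * a + (1 - l) * d = b := by
    rw [hl]; field_simp; ring
  have e2 : (1 - l) * a + l * d = c := by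
    have : c = a + d - b := by linarith
    rw [this, hl]; field_simp; ring
  have hne : a ≠ d := by linarith
  have h1 := hf.2 ha hd hne hl0 (by linarith : 0 < 1 - l) (by ring)
  have h2 := hf.2 ha hd hne (by linarith : 0 < 1 - l) hl0 (by ring)
  simp only [smul_eq_mul] at h1 h2
  rw [e1] at h1
  rw [e2] at h2
  linarith

/-- majorisation for convex functions on an interval -/
lemma convex_major {f : ℝ → ℝ} {s : Set ℝ} (hf : ConvexOn ℝ s f) {a b c d : ℝ}
    (ha : a ∈ s) (hd : d ∈ s) (hab : a ≤ b) (hbd : b ≤ d) (hsum : a + d = b + c) :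
    f b + f c ≤ f a + f d := by
  rcases eq_or_lt_of_le (hab.trans hbd) with h | h
  · have h1 : b = a := le_antisymm (by linarith) hab
    have h2 : c = d := by linarith
    rw [h1, h2]
  · set l := (d - b) / (d - a) with hl
    have hda : 0 < d - a := by linarith
    have hl0 : 0 ≤ l := div_nonneg (by linarith) hda.le
    have hl1 : l ≤ 1 := by rw [hl, div_le_one hda]; linarith
    have e1 : l * a + (1 - l) * d = b := by
      rw [hl]; field_simp; ring
    have e2 : (1 - l) * a + l * d = c := by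
      have : c = a + d - b := by linarith
      rw [this, hl]; field_simp; ring
    have h1 := hf.2 ha hd hl0 (by linarith : 0 ≤ 1 - l) (by ring)
    have h2 := hf.2 ha hd (by linarith : 0 ≤ 1 - l) hl0 (by ring)
    simp only [smul_eq_mul] at h1 h2
    rw [e1] at h1
    rw [e2] at h2
    linarith

end Vale.Agent.Lib.P224
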