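import Mathlib

namespace Vale.Agent.Lib.P224

open Real

/-- The volume `|S^k| = 2 π^((k+1)/2) / Γ((k+1)/2)` of the unit `k`-sphere in `ℝ^(k+1)`. -/
noncomputable def sphereVol (k : ℕ) : ℝ :=
  2 * π ^ (((k:ℝ) + 1) / 2) / Gamma (((k:ℝ) + 1) / 2)

/-- The volume `(k/m)^(k/2) ((m-k)/m)^((m-k)/2) |S^k| |S^(m-k)|` of the minimal Clifford product
`C_{k,m-k} = S^k(√(k/m)) × S^(m-k)(√((m-k)/m))` in `S^(m+1)`. -/
noncomputable def cliffordVol (m k : ℕ) : ℝ :=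
  ((k:ℝ) / m) ^ ((k:ℝ) / 2) * (((m:ℝ) - k) / m) ^ (((m:ℝ) - k) / 2)
    * sphereVol k * sphereVol (m - k)

end Vale.Agent.Lib.P224
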