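import Vale.Agent.Lib.P224.Clifford

namespace Vale.Agent.Lib.P224

open Real Set Filter Topology

/-- Volume of the minimal isoparametric hypersurface of `S^(m+1)` with `g` distinct principal
curvatures of multiplicities `m1, m2` (so `2 m = g (m1 + m2)`), by Münzner's formula:
`Vol(M_θ) = c sin^m1(gθ/2) cos^m2(gθ/2)` on `0 < θ < π/g`, `∫ Vol(M_θ) dθ = |S^(m+1)|`, and the
minimal leaf is the one of largest volume. This gives
`g |S^(m+1)| (m1/n)^(m1/2) (m2/n)^(m2/2) / B((m1+1)/2, (m2+1)/2)`, `n = m1 + m2`. -/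
noncomputable def isoVol (g m1 m2 m : ℕ) : ℝ :=
  (g:ℝ) * sphereVol (m + 1)
    * ((m1:ℝ) / ((m1:ℝ) + m2)) ^ ((m1:ℝ) / 2) * ((m2:ℝ) / ((m1:ℝ) + m2)) ^ ((m2:ℝ) / 2)
    * (Gamma (((m1:ℝ) + m2 + 2) / 2) / (Gamma (((m1:ℝ) + 1) / 2) * Gamma (((m2:ℝ) + 1) / 2)))

lemma Gamma_mid_sq {s t : ℝ} (hs : 0 < s) (ht : 0 < t) :
    Gamma ((s + t) / 2) ^ 2 ≤ Gamma s * Gamma t := by
  have h := Real.Gamma_mul_add_mul_le_rpow_Gamma_mul_rpow_Gamma hs ht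
    (by norm_num : (0:ℝ) < 1 / 2) (by norm_num : (0:ℝ) < 1 / 2) (by norm_num)
  have e : 1 / 2 * s + 1 / 2 * t = (s + t) / 2 := by ring
  rw [e] at h
  have hG : 0 < Gamma ((s + t) / 2) := Real.Gamma_pos_of_pos (by positivity)
  have hs' := Real.Gamma_pos_of_pos hs
  have ht' := Real.Gamma_pos_of_pos ht
  calc Gamma ((s + t) / 2) ^ 2 ≤ (Gamma s ^ (1 / 2 : ℝ) * Gamma t ^ (1 / 2 : ℝ)) ^ 2 := by gcongr
    _ = Gamma s * Gamma t := by
      rw [mul_pow, ← Real.sqrt_eq_rpow, ← Real.sqrt_eq_rpow, Real.sq_sqrt hs'.le,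
        Real.sq_sqrt ht'.le]

/-- `A k = |S^(k+1)| / |S^k|` -/
lemma sphere_ratio (k : ℕ) :
    sphereVol (k + 1) = sphereVol k * (√π * (Gamma (((k:ℝ) + 1) / 2) / Gamma (((k:ℝ) + 2) / 2))) := by
  unfold sphereVol
  have h1 : 0 < Gamma (((k:ℝ) + 1) / 2) := Real.Gamma_pos_of_pos (by positivity)
  have h2 : 0 < Gamma (((k:ℝ) + 2) / 2) := Real.Gamma_pos_of_pos (by positivity)
  have e1 : (((k + 1 : ℕ) : ℝ) + 1) / 2 = ((k:ℝ) + 2) / 2 := by push_cast; ring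
  have e2 : π ^ (((k:ℝ) + 2) / 2) = π ^ (((k:ℝ) + 1) / 2) * √π := by
    rw [Real.sqrt_eq_rpow, ← Real.rpow_add Real.pi_pos]; congr 1; ring
  rw [e1, e2]
  field_simp

lemma W_lower (k : ℕ) :
    2 / ((k:ℝ) + 1) ≤ (Gamma (((k:ℝ) + 1) / 2) / Gamma (((k:ℝ) + 2) / 2)) ^ 2 := by
  have h1 : 0 < Gamma (((k:ℝ) + 1) / 2) := Real.Gamma_pos_of_pos (by positivity)
  have h2 : 0 < Gamma (((k:ℝ) + 2) / 2) := Real.Gamma_pos_of_pos (by positivity)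
  have h := Gamma_mid_sq (s := ((k:ℝ) + 1) / 2) (t := ((k:ℝ) + 1) / 2 + 1) (by positivity)
    (by positivity)
  rw [Real.Gamma_add_one (by positivity)] at h
  have e : (((k:ℝ) + 1) / 2 + (((k:ℝ) + 1) / 2 + 1)) / 2 = ((k:ℝ) + 2) / 2 := by ring
  rw [e] at h
  rw [div_pow, div_le_div_iff₀ (by positivity) (by positivity)]
  nlinarith [h]

lemma W_upper {k : ℕ} (hk : 1 ≤ k) :
    (Gamma (((k:ℝ) + 1) / 2) / Gamma (((k:ℝ) + 2) / 2)) ^ 2 ≤ 2 / (k:ℝ) := by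
  have hk' : (0:ℝ) < k := by exact_mod_cast hk
  have h1 : 0 < Gamma (((k:ℝ) + 1) / 2) := Real.Gamma_pos_of_pos (by positivity)
  have h2 : 0 < Gamma (((k:ℝ) + 2) / 2) := Real.Gamma_pos_of_pos (by positivity)
  have h3 : 0 < Gamma ((k:ℝ) / 2) := Real.Gamma_pos_of_pos (by positivity)
  have h := Gamma_mid_sq (s := (k:ℝ) / 2) (t := (k:ℝ) / 2 + 1) (by positivity) (by positivity)
  have e : ((k:ℝ) / 2 + ((k:ℝ) / 2 + 1)) / 2 = ((k:ℝ) + 1) / 2 := by ring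
  have e2 : (k:ℝ) / 2 + 1 = ((k:ℝ) + 2) / 2 := by ring
  have h4 : Gamma (((k:ℝ) + 2) / 2) = (k:ℝ) / 2 * Gamma ((k:ℝ) / 2) := by
    rw [← e2, Real.Gamma_add_one (by positivity)]
  rw [e, e2] at h
  rw [div_pow, div_le_div_iff₀ (by positivity) (by positivity)]
  have h5 : Gamma ((k:ℝ) / 2) * (k:ℝ) = 2 * Gamma (((k:ℝ) + 2) / 2) := by rw [h4]; ring
  calc Gamma (((k:ℝ) + 1) / 2) ^ 2 * (k:ℝ)
      ≤ (Gamma ((k:ℝ) / 2) * Gamma (((k:ℝ) + 2) / 2)) * k := by gcongr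
    _ = (Gamma ((k:ℝ) / 2) * (k:ℝ)) * Gamma (((k:ℝ) + 2) / 2) := by ring
    _ = 2 * Gamma (((k:ℝ) + 2) / 2) ^ 2 := by rw [h5]; ring

lemma isoVol_eq {g m1 m2 m : ℕ} (h1 : 1 ≤ m1) (h2 : 1 ≤ m2) :
    isoVol g m1 m2 m
      = (g:ℝ) / 2 * (sphereVol (m + 1) / sphereVol (m1 + m2 + 1)) * cliffordVol (m1 + m2) m1 := by
  have h1' : (0:ℝ) < m1 := by exact_mod_cast h1
  have h2' : (0:ℝ) < m2 := by exact_mod_cast h2
  unfold isoVol cliffordVol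
  have e1 : m1 + m2 - m1 = m2 := by omega
  rw [e1]
  have e2 : (((m1 + m2 : ℕ) : ℝ) - m1) = m2 := by push_cast; ring
  rw [e2]
  have e3 : ((m1 + m2 : ℕ) : ℝ) = (m1:ℝ) + m2 := by push_cast; ring
  rw [e3]
  have hS : sphereVol (m1 + m2 + 1) = 2 * π ^ (((m1:ℝ) + m2 + 2) / 2) / Gamma (((m1:ℝ) + m2 + 2) / 2) := by
    unfold sphereVol
    have : (((m1 + m2 + 1 : ℕ) : ℝ) + 1) / 2 = ((m1:ℝ) + m2 + 2) / 2 := by push_cast; ring
    rw [this]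
  rw [hS]
  have hS1 : sphereVol m1 = 2 * π ^ (((m1:ℝ) + 1) / 2) / Gamma (((m1:ℝ) + 1) / 2) := rfl
  have hS2 : sphereVol m2 = 2 * π ^ (((m2:ℝ) + 1) / 2) / Gamma (((m2:ℝ) + 1) / 2) := rfl
  rw [hS1, hS2]
  have e4 : π ^ (((m1:ℝ) + m2 + 2) / 2) = π ^ (((m1:ℝ) + 1) / 2) * π ^ (((m2:ℝ) + 1) / 2) := by
    rw [← Real.rpow_add Real.pi_pos]; congr 1; ring
  rw [e4]
  have g1 : 0 < Gamma (((m1:ℝ) + 1) / 2) := Real.Gamma_pos_of_pos (by positivity)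
  have g2 : 0 < Gamma (((m2:ℝ) + 1) / 2) := Real.Gamma_pos_of_pos (by positivity)
  have g3 : 0 < Gamma (((m1:ℝ) + m2 + 2) / 2) := Real.Gamma_pos_of_pos (by positivity)
  have p1 : 0 < π ^ (((m1:ℝ) + 1) / 2) := Real.rpow_pos_of_pos Real.pi_pos _
  have p2 : 0 < π ^ (((m2:ℝ) + 1) / 2) := Real.rpow_pos_of_pos Real.pi_pos _
  field_simp

lemma clifford_two_one : cliffordVol 2 1 = sphereVol 2 * (π / 2) := by
  rw [cliffordVol_ratio le_rfl (by norm_num)]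
  congr 1
  have e : ((2:ℕ):ℝ) - ((1:ℕ):ℝ) = 1 := by norm_num
  rw [e, Nat.cast_one, Nat.cast_ofNat, Lfun_one, Lfun_two]
  have : (0:ℝ) + 0 - log (4 / √π) = - log (4 / √π) := by ring
  rw [this, Real.exp_neg, Real.exp_log (by positivity)]
  have hpi : √π * √π = π := Real.mul_self_sqrt Real.pi_pos.le
  field_simp
  nlinarith [hpi]

lemma isoVol_eq' {g m1 m2 m : ℕ} (h1 : 1 ≤ m1) (h2 : 1 ≤ m2) :
    isoVol g m1 m2 m = sphereVol m * ((g:ℝ) / 2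
      * ((Gamma (((m:ℝ) + 1) / 2) / Gamma (((m:ℝ) + 2) / 2))
        / (Gamma ((((m1 + m2 : ℕ):ℝ) + 1) / 2) / Gamma ((((m1 + m2 : ℕ):ℝ) + 2) / 2)))
      * (cliffordVol (m1 + m2) m1 / sphereVol (m1 + m2))) := by
  rw [isoVol_eq h1 h2, sphere_ratio m, sphere_ratio (m1 + m2)]
  have s1 := sphereVol_pos m
  have s2 := sphereVol_pos (m1 + m2)
  have g1 : 0 < Gamma (((m:ℝ) + 1) / 2) := Real.Gamma_pos_of_pos (by positivity)
  have g2 : 0 < Gamma (((m:ℝ) + 2) / 2) := Real.Gamma_pos_of_pos (by positivity)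
  have g3 : 0 < Gamma ((((m1 + m2 : ℕ):ℝ) + 1) / 2) := Real.Gamma_pos_of_pos (by positivity)
  have g4 : 0 < Gamma ((((m1 + m2 : ℕ):ℝ) + 2) / 2) := Real.Gamma_pos_of_pos (by positivity)
  have hp : 0 < √π := by positivity
  field_simp

lemma q_bound {g m n : ℕ} (hn : 1 ≤ n) (c : ℝ) :
    (g:ℝ) ^ 2 / 4 * ((n:ℝ) / ((m:ℝ) + 1)) * c ^ 2 ≤ ((g:ℝ) / 2
      * ((Gamma (((m:ℝ) + 1) / 2) / Gamma (((m:ℝ) + 2) / 2))
        / (Gamma (((n:ℝ) + 1) / 2) / Gamma (((n:ℝ) + 2) / 2))) * c) ^ 2 := by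
  have hn' : (0:ℝ) < n := by exact_mod_cast hn
  set Wm := Gamma (((m:ℝ) + 1) / 2) / Gamma (((m:ℝ) + 2) / 2) with hWm
  set Wn := Gamma (((n:ℝ) + 1) / 2) / Gamma (((n:ℝ) + 2) / 2) with hWn
  have g3 : 0 < Gamma (((n:ℝ) + 1) / 2) := Real.Gamma_pos_of_pos (by positivity)
  have g4 : 0 < Gamma (((n:ℝ) + 2) / 2) := Real.Gamma_pos_of_pos (by positivity)
  have hWnpos : 0 < Wn := by positivity
  have hl := W_lower m
  have hu := W_upper hn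
  rw [← hWm] at hl
  rw [← hWn] at hu
  have h1 : (n:ℝ) / ((m:ℝ) + 1) ≤ (Wm / Wn) ^ 2 := by
    rw [div_pow, div_le_div_iff₀ (by positivity) (by positivity)]
    have a1 : (n:ℝ) * Wn ^ 2 ≤ 2 := by
      rw [le_div_iff₀ hn'] at hu; linarith
    have a2 : 2 ≤ Wm ^ 2 * ((m:ℝ) + 1) := by
      rw [div_le_iff₀ (by positivity)] at hl; exact hl
    linarith
  calc (g:ℝ) ^ 2 / 4 * ((n:ℝ) / ((m:ℝ) + 1)) * c ^ 2
      ≤ (g:ℝ) ^ 2 / 4 * (Wm / Wn) ^ 2 * c ^ 2 := by gcongr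
    _ = ((g:ℝ) / 2 * (Wm / Wn) * c) ^ 2 := by ring

theorem iso_lower {g m1 m2 m : ℕ} (hg : 3 ≤ g) (h1 : 1 ≤ m1) (h2 : 1 ≤ m2)
    (hm : 2 * m = g * (m1 + m2)) : π / 2 * sphereVol m < isoVol g m1 m2 m := by
  rw [isoVol_eq' h1 h2]
  set n := m1 + m2 with hn
  have hn2 : 2 ≤ n := by omega
  have hn' : (2:ℝ) ≤ n := by exact_mod_cast hn2
  have hg' : (3:ℝ) ≤ g := by exact_mod_cast hg
  have hm' : 2 * (m:ℝ) = g * n := by exact_mod_cast hm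
  set c := cliffordVol n m1 / sphereVol n with hc
  have sn := sphereVol_pos n
  have sm := sphereVol_pos m
  have hc2 : √2 < c := by
    rw [hc, lt_div_iff₀ sn]
    exact clifford_lower h1 (by omega)
  have hcpos : 0 < c := lt_trans (by positivity) hc2
  have hcsq : 2 < c ^ 2 := by
    have : √2 ^ 2 = 2 := Real.sq_sqrt (by norm_num)
    nlinarith [Real.sqrt_nonneg 2]
  have hq := q_bound (g := g) (m := m) (n := n) (by omega) c
  set q := (g:ℝ) / 2 * ((Gamma (((m:ℝ) + 1) / 2) / Gamma (((m:ℝ) + 2) / 2))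
        / (Gamma (((n:ℝ) + 1) / 2) / Gamma (((n:ℝ) + 2) / 2))) * c with hqdef
  have g1 : 0 < Gamma (((m:ℝ) + 1) / 2) := Real.Gamma_pos_of_pos (by positivity)
  have g2 : 0 < Gamma (((m:ℝ) + 2) / 2) := Real.Gamma_pos_of_pos (by positivity)
  have g3 : 0 < Gamma (((n:ℝ) + 1) / 2) := Real.Gamma_pos_of_pos (by positivity)
  have g4 : 0 < Gamma (((n:ℝ) + 2) / 2) := Real.Gamma_pos_of_pos (by positivity)
  have hqpos : 0 < q := by positivity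
  have hpi : π < 3.15 := Real.pi_lt_d2
  have hpi0 := Real.pi_pos
  have hpisq : π ^ 2 < 9.9225 := by nlinarith
  have hmpos : (0:ℝ) < (m:ℝ) + 1 := by positivity
  have key : (π / 2) ^ 2 < q ^ 2 := by
    refine lt_of_lt_of_le ?_ hq
    by_cases hspecial : g = 3 ∧ n = 2
    · obtain ⟨hg3, hn2'⟩ := hspecial
      have hm3 : m = 3 := by rw [hg3, hn2'] at hm; omega
      have hm11 : m1 = 1 := by omega
      have hcval : c = π / 2 := by
        rw [hc, hn2', hm11, clifford_two_one]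
        have := sphereVol_pos 2
        field_simp
      rw [hcval, hg3, hn2', hm3]
      norm_num
      nlinarith [sq_nonneg π, hpi0]
    · have hineq : 9.9225 * ((g:ℝ) * n + 2) ≤ 4 * (g:ℝ) ^ 2 * n := by
        rcases Nat.lt_or_ge g 4 with hlt | hge
        · have hg3 : g = 3 := by omega
          have hn4 : 4 ≤ n := by
            by_contra hh
            have : n = 2 ∨ n = 3 := by omega
            rcases this with h | h
            · exact hspecial ⟨hg3, h⟩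
            · rw [hg3, h] at hm; omega
          have hn4' : (4:ℝ) ≤ n := by exact_mod_cast hn4
          rw [hg3]
          norm_num
          linarith
        · have hge' : (4:ℝ) ≤ g := by exact_mod_cast hge
          nlinarith [mul_le_mul hge' hn' (by norm_num) (by linarith)]
      have h3 : (π / 2) ^ 2 * ((m:ℝ) + 1) < (g:ℝ) ^ 2 / 4 * n * 2 := by
        have : (m:ℝ) + 1 = ((g:ℝ) * n + 2) / 2 := by linarith
        rw [this]
        have hpos : 0 < (g:ℝ) * n + 2 := by positivity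
        nlinarith
      have h4 : (π / 2) ^ 2 < (g:ℝ) ^ 2 / 4 * ((n:ℝ) / ((m:ℝ) + 1)) * 2 := by
        rw [← mul_div_assoc, div_mul_eq_mul_div, lt_div_iff₀ hmpos]
        exact h3
      have h5 : (g:ℝ) ^ 2 / 4 * ((n:ℝ) / ((m:ℝ) + 1)) * 2 ≤ (g:ℝ) ^ 2 / 4 * ((n:ℝ) / ((m:ℝ) + 1)) * c ^ 2 := by
        gcongr
      linarith
  have hfin : π / 2 < q := lt_of_pow_lt_pow_left₀ 2 hqpos.le key
  calc π / 2 * sphereVol m = sphereVol m * (π / 2) := by ring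
    _ < sphereVol m * q := by gcongr

end Vale.Agent.Lib.P224
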